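import Vale.Agent.Lib.P126.Main

namespace Vale.Agent.Results.P126.A_BoxPairs

open scoped Pointwise
open Vale.Agent.Lib.P126

/-- Duality of metric entropy with the absolute constants `a = 4`, `b = 2` for every pair of
axis-parallel boxes `K = box r`, `L = box s` in every dimension: the three covering numbers
are attained by finite coverings and
`(1/2) log N(L°, 4K°) ≤ log N(K, L) ≤ 2 log N(L°, (1/4)K°)`. -/
theorem result (n : ℕ) (r s : Fin n → ℝ) (hr : ∀ i, 0 < r i) (hs : ∀ i, 0 < s i) :
    (∃ k, CoveredBy (box r) (box s) k) ∧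
    (∃ k, CoveredBy (polar (box s)) ((4 : ℝ) • polar (box r)) k) ∧
    (∃ k, CoveredBy (polar (box s)) ((1 / 4 : ℝ) • polar (box r)) k) ∧
    (1 / 2) * Real.log (covNum (polar (box s)) ((4 : ℝ) • polar (box r)))
      ≤ Real.log (covNum (box r) (box s)) ∧
    Real.log (covNum (box r) (box s))
      ≤ 2 * Real.log (covNum (polar (box s)) ((1 / 4 : ℝ) • polar (box r))) :=
  main n r s hr hs

end Vale.Agent.Results.P126.A_BoxPairs
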